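import Vale.Agent.Lib.P200.Final

/-!
# The Eisenbud-Green-Harris conjecture for regular sequences of type `(3, a, a)` in three variables
-/

namespace Vale.Agent.Results.P200.A_main

open MvPolynomial Module Vale.Agent.Lib.P200 Vale.Agent.Lib.P200.Statement

/-- Let `K` be any field, `a ≥ 3`, and `f, g, h` a homogeneous regular sequence in `K[x₀, x₁, x₂]`
of degrees `3, a, a`. If `I` is a homogeneous ideal containing `f, g, h`, then the lex-plus-powers
space `J` of `I` with respect to `P = (x₀ ^ 3, x₁ ^ a, x₂ ^ a)` is an ideal, with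
`dim J_d = dim I_d` for every `d`. -/
theorem result {K : Type*} [Field K] {a : ℕ} (ha : 3 ≤ a)
    {f g h : MvPolynomial (Fin 3) K} (hf : f.IsHomogeneous 3) (hg : g.IsHomogeneous a)
    (hh : h.IsHomogeneous a) (f0 : f ≠ 0)
    (rg : ∀ r, g * r ∈ Ideal.span {f} → r ∈ Ideal.span {f})
    (rh : ∀ r, h * r ∈ Ideal.span {f, g} → r ∈ Ideal.span {f, g})
    {I : Ideal (MvPolynomial (Fin 3) K)}
    (_hI : ∀ u ∈ I, ∀ d, homogeneousComponent d u ∈ I)
    (hfI : f ∈ I) (hgI : g ∈ I) (hhI : h ∈ I) :
    (∃ J : Ideal (MvPolynomial (Fin 3) K), J.restrictScalars K = lexSpace ![3, a, a] I) ∧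
    (∀ d, finrank K (lexPiece ![3, a, a] I d) = finrank K (piece I d)) := by
  have R : RegSeq f g h a :=
    { ht := by omega
      hf := hf
      f0 := f0
      hv := hg
      hw := hh
      rv := rg
      rw := by
        intro r hr
        rw [Ideal.span_insert] at rh
        exact rh r hr }
  have hle : Ideal.span {f} ⊔ Ideal.span {g} ⊔ Ideal.span {h} ≤ I := by
    refine sup_le (sup_le ?_ ?_) ?_
    · exact (Ideal.span_singleton_le_iff_mem _).mpr hfI
    · exact (Ideal.span_singleton_le_iff_mem _).mpr hgI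
    · exact (Ideal.span_singleton_le_iff_mem _).mpr hhI
  refine ⟨⟨{ carrier := lexSpace ![3, a, a] I
             add_mem' := fun hu hv => Submodule.add_mem _ hu hv
             zero_mem' := Submodule.zero_mem _
             smul_mem' := fun r u hu => mul_mem_lexSpace R ha hle r u hu }, ?_⟩,
    fun d => finrank_lexPiece R ha hle d⟩
  ext u
  rfl

end Vale.Agent.Results.P200.A_main
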